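import Vale.Agent.P126.Final

namespace Vale.Agent.Results.P126.Disproof

open Vale.Agent.P126
open scoped Pointwise

theorem result :
    (∀ a b : ℝ, 1 ≤ a → 1 ≤ b → ∃ n : ℕ, 1 ≤ n ∧ ∃ K L : Set (Rn n),
      IsSymBody K ∧ IsSymBody L ∧
        b * Real.log (covN (polar L) (a⁻¹ • polar K)) < Real.log (covN K L)) ∧
    ¬ ∃ a b : ℝ, 1 ≤ a ∧ 1 ≤ b ∧ ∀ n : ℕ, 1 ≤ n → ∀ K L : Set (Rn n),
      IsSymBody K → IsSymBody L →
        1 / b * Real.log (covN (polar L) (a • polar K)) ≤ Real.log (covN K L) ∧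
        Real.log (covN K L) ≤ b * Real.log (covN (polar L) (a⁻¹ • polar K)) := by
  refine ⟨Vale.Agent.P126.main, ?_⟩
  rintro ⟨a, b, ha, hb, h⟩
  obtain ⟨n, hn, K, L, hK, hL, h1⟩ := Vale.Agent.P126.main a b ha hb
  exact absurd (h n hn K L hK hL).2 (not_le.2 h1)

end Vale.Agent.Results.P126.Disproof
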